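import Vale.Agent.P162.H815.Hybrid

/-!
# P162, stage 2, part (A): up to `7/8` of the cards are mixed after `151 d` steps
-/

open Finset

namespace Vale.Agent.P162.H815

open Vale.Agent.P162.S2

variable {d k : ℕ}

/-- Average over the embeddings of `k + 1` cards. -/
theorem avg_embedding_succ (hk : (k : ℝ) < 2 ^ d) (F : (Fin (k + 1) → V d) → ℝ) :
    avg (fun e : Fin (k + 1) ↪ V d => F e) =
      avg (fun e : Fin k ↪ V d => ∑ x, (if rng e x then 0 else 1 / (2 ^ d - k : ℝ)) *
        F (Fin.cons x (e : Fin k → V d))) := by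
  have hk2 : k < 2 ^ d := by exact_mod_cast hk
  have hcard : Fintype.card (V d) = 2 ^ d := by
    rw [Fintype.card_fun, Fintype.card_bool, Fintype.card_fin]
  have h1 : (Fintype.card (Fin (k + 1) ↪ V d) : ℝ) =
      (2 ^ d - k) * Fintype.card (Fin k ↪ V d) := by
    rw [Fintype.card_embedding_eq, Fintype.card_embedding_eq, hcard, Fintype.card_fin,
      Fintype.card_fin, Nat.descFactorial_succ, Nat.cast_mul, Nat.cast_sub hk2.le]
    norm_num
  have h2 : (2 ^ d - k : ℝ) ≠ 0 := by linarith
  have h3 : ∑ e : Fin (k + 1) ↪ V d, F e =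
      ∑ e : Fin k ↪ V d, ∑ x, (if rng e x then 0 else 1) * F (Fin.cons x (e : Fin k → V d)) := by
    rw [← Equiv.sum_comp (Equiv.embeddingFinSucc k (V d)).symm, Fintype.sum_sigma]
    apply sum_congr rfl
    intro e _
    have h4 : ∀ x : {i // i ∉ Set.range e},
        F ((Equiv.embeddingFinSucc k (V d)).symm ⟨e, x⟩) = F (Fin.cons x.1 (e : Fin k → V d)) := by
      intro x
      rw [Equiv.coe_embeddingFinSucc_symm]
    rw [sum_congr rfl fun x _ => h4 x]
    have h5 : ∑ x, (if rng e x then (0 : ℝ) else 1) * F (Fin.cons x (e : Fin k → V d)) =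
        ∑ x ∈ univ.filter (fun x => x ∉ Set.range e), F (Fin.cons x (e : Fin k → V d)) := by
      rw [sum_filter]
      apply sum_congr rfl
      intro x _
      by_cases hx : ∃ b, e b = x
      · rw [if_pos ((rng_iff _ _).2 hx), if_neg (by simpa using hx), zero_mul]
      · have : ¬ rng e x = true := fun h => hx ((rng_iff _ _).1 h)
        rw [if_neg this, if_pos (by simpa using hx), one_mul]
    rw [h5]
    exact (sum_subtype (univ.filter (fun x => x ∉ Set.range e)) (by simp)
      (fun x => F (Fin.cons x (e : Fin k → V d)))).symm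
  rw [avg, avg, h3, h1, ← div_div]
  congr 1
  rw [sum_div]
  apply sum_congr rfl
  intro e _
  rw [sum_div]
  apply sum_congr rfl
  intro x _
  split
  · simp
  · ring

theorem hybrid (l : List (Fin d)) (ε : ℝ)
    (hε : ∀ (k : ℕ) (σ : St d), (k : ℝ) ≤ 7 / 8 * 2 ^ d → Inv' k σ → KK St.step l St.sq σ ≤ ε) :
    ∀ k : ℕ, (k : ℝ) ≤ 7 / 8 * 2 ^ d → ∀ g : Fin k → V d, Function.Injective g →
      ∀ F : (Fin k → V d) → ℝ, (∀ h, Function.Injective h → 0 ≤ F h ∧ F h ≤ 1) →
      KK stepP l F g ≤ avg (fun e : Fin k ↪ V d => F e) + k * (1 / 2 * √(2 ^ d * ε)) := by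
  intro k
  induction k with
  | zero =>
    intro _ g _ F _
    have h1 : F = fun _ => F g := by
      funext h
      congr 1
      exact Subsingleton.elim _ _
    rw [h1, KK_const]
    simp [avg_const]
  | succ k ih =>
    intro hk g hg F hF
    have hn : (0 : ℝ) < 2 ^ d := by positivity
    have hk' : (k : ℝ) ≤ 7 / 8 * 2 ^ d := by push_cast at hk; linarith
    have hk'' : (k : ℝ) < 2 ^ d := by linarith
    have hnk : (0 : ℝ) < 2 ^ d - k := by linarith
    set a : V d := g 0 with ha
    set g' : Fin k → V d := fun b => g b.succ with hg'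
    have hg'inj : Function.Injective g' := fun b c h => Fin.succ_injective k (hg h)
    have hag' : ∀ b, g' b ≠ a := by
      intro b h
      exact Fin.succ_ne_zero b (hg h)
    have hcons : g = Fin.cons a g' := by
      funext b
      refine Fin.cases rfl (fun b => rfl) b
    let φ : (Fin k → V d) × V d → ℝ := fun p => F (Fin.cons p.2 p.1)
    let u : ℝ := 1 / (2 ^ d - k)
    let v0 : V d → ℝ := fun x => (if x = a then 1 else 0) - (if rng g' x then 0 else u)
    let δa : V d → ℝ := fun x => if x = a then 1 else 0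
    let F' : (Fin k → V d) → ℝ := fun h => ∑ x, (if rng h x then 0 else u) * F (Fin.cons x h)
    -- step 1
    have h1 : KK stepP l F g = KK stepP2 l φ (g', a) := by
      have := KK_comp (stepP2 (d := d) (k := k)) stepP
        (fun p : (Fin k → V d) × V d => (Fin.cons p.2 p.1 : Fin (k + 1) → V d)) (fun _ => True)
        (fun _ _ _ _ => trivial) (by
          intro i c p _
          funext b
          refine Fin.cases rfl (fun b => rfl) b) l F (g', a) trivial
      rw [hcons]
      exact this.symm
    -- step 2, 3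
    have h2 : KK stepP2 l φ (g', a) = KK stepC l (Phi φ) (g', δa) := by
      rw [KK_Phi]
      · simp [Phi, δa]
      · intro x hx
        obtain ⟨b, hb⟩ := (rng_iff _ _).1 hx
        have : x ≠ a := by rw [← hb]; exact hag' b
        simp [δa, this]
    -- step 4
    have h3 : (g', δa) = addU u (g', v0) := by
      simp only [addU, v0, δa, sub_add_cancel]
    have h4 : KK stepC l (Phi φ) (addU u (g', v0)) =
        KK stepC l (fun s => Phi φ (addU u s)) (g', v0) :=
      (KK_comp stepC stepC (addU u) (fun _ => True) (fun _ _ _ _ => trivial)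
        (fun i c s _ => addU_step u i c s) l (Phi φ) (g', v0) trivial).symm
    -- step 5
    have h5 : (fun s : (Fin k → V d) × (V d → ℝ) => Phi φ (addU u s)) =
        fun s => Phi φ s + F' s.1 := by
      funext s
      simp only [Phi, addU, F', φ]
      rw [← sum_add_distrib]
      apply sum_congr rfl
      intro x _
      ring
    -- the initial state
    have hsum : ∑ x, v0 x = 0 := by
      simp only [v0]
      rw [sum_sub_distrib]
      simp only [sum_ite_eq', mem_univ, if_true]
      have h6 : ∑ x, (if rng g' x then (0 : ℝ) else u) = 1 := by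
        have h7 : ∀ x, (if rng g' x then (0 : ℝ) else u) = if rng g' x = false then u else 0 := by
          intro x
          cases rng g' x <;> simp
        rw [sum_congr rfl fun x _ => h7 x, ← sum_filter, sum_const, nsmul_eq_mul,
          card_not_rng hg'inj]
        simp only [u]
        field_simp
      rw [h6]
      ring
    have hsup : Sup (g', v0) := by
      intro x hx
      obtain ⟨b, hb⟩ := (rng_iff _ _).1 hx
      have : x ≠ a := by rw [← hb]; exact hag' b
      have hx' : rng g' x = true := hx
      simp [v0, this, hx']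
    have hu : 0 ≤ u := by simp only [u]; positivity
    have hra : rng g' a = false := by
      rw [← Bool.not_eq_true]
      intro h
      obtain ⟨b, hb⟩ := (rng_iff _ _).1 h
      exact hag' b hb
    have hsq : (toSt (g', v0)).sq ≤ 1 := by
      have h6 : (toSt (g', v0)).sq = ∑ x, v0 x * v0 x := by
        simp only [St.sq, toSt, sq]
      have h7 : ∀ x, v0 x * v0 x = v0 x * (if x = a then 1 else 0) - u * v0 x := by
        intro x
        by_cases hx : rng g' x = true
        · have h0 : v0 x = 0 := hsup x hx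
          rw [h0]; ring
        · rw [Bool.not_eq_true] at hx
          simp only [v0, hx, Bool.false_eq_true, if_false]
          ring
      have h8 : ∑ x, v0 x * v0 x = v0 a := by
        rw [sum_congr rfl fun x _ => h7 x, sum_sub_distrib, ← mul_sum, hsum]
        simp
      rw [h6, h8]
      simp only [v0, hra, if_true, Bool.false_eq_true, if_false]
      linarith
    have hInv : Inv' k (toSt (g', v0)) :=
      ⟨⟨hsup, hsum, card_rng hg'inj⟩, hsq⟩
    -- first term
    have h6 : KK stepC l (Phi φ) (g', v0) ≤ 1 / 2 * √(2 ^ d * ε) := by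
      have h7 : KK stepC l (Phi φ) (g', v0) ≤
          KK stepC l (fun s => 1 / 2 * √(2 ^ d * (toSt s).sq)) (g', v0) := by
        apply KK_mono_inv stepC
          (fun s => Function.Injective s.1 ∧ Sup s ∧ ∑ x, s.2 x = 0) _ l _ _
          ⟨hg'inj, hsup, hsum⟩
        · rintro i c s ⟨h1, h2, h3⟩
          refine ⟨stepP_injective i c h1, Sup.step i c s h2, ?_⟩
          have := sum_stp i (toSt s) c
          have h8 : ∑ x, (toSt s).v x = 0 := h3
          rw [h8] at this
          exact this
        · rintro s ⟨h1, h2, h3⟩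
          apply Phi_le h2 h3
          intro x hx
          apply hF
          intro b c
          refine Fin.cases ?_ (fun b => ?_) b
          · refine Fin.cases (fun _ => rfl) (fun c hbc => ?_) c
            exfalso
            have h9 : rng s.1 x = true := (rng_iff _ _).2 ⟨c, hbc.symm⟩
            rw [hx] at h9
            simp at h9
          · refine Fin.cases (fun hbc => ?_) (fun c hbc => ?_) c
            · exfalso
              have h9 : rng s.1 x = true := (rng_iff _ _).2 ⟨b, hbc⟩
              rw [hx] at h9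
              simp at h9
            · exact congrArg Fin.succ (h1 hbc)
      refine h7.trans ?_
      rw [KK_const_mul]
      apply mul_le_mul_of_nonneg_left _ (by norm_num)
      refine (KK_sqrt_le stepC l _ (fun s => mul_nonneg hn.le (sq_nonneg' _)) _).trans ?_
      apply Real.sqrt_le_sqrt
      rw [KK_const_mul]
      apply mul_le_mul_of_nonneg_left _ hn.le
      rw [KK_comp stepC St.step toSt (fun _ => True) (fun _ _ _ _ => trivial)
        (fun i c s _ => toSt_step i c s) l St.sq (g', v0) trivial]
      exact hε k _ hk' hInv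
    -- second term
    have h7 : KK stepC l (fun s => F' s.1) (g', v0) = KK stepP l F' g' :=
      KK_comp stepC stepP (fun s : (Fin k → V d) × (V d → ℝ) => s.1) (fun _ => True)
        (fun _ _ _ _ => trivial) (fun _ _ _ _ => rfl) l F' (g', v0) trivial
    have h8 : KK stepP l F' g' ≤ avg (fun e : Fin k ↪ V d => F' e) +
        k * (1 / 2 * √(2 ^ d * ε)) := by
      apply ih hk' g' hg'inj F'
      intro h hh
      have h9 : ∀ x, rng h x = false → 0 ≤ F (Fin.cons x h) ∧ F (Fin.cons x h) ≤ 1 := by
        intro x hx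
        apply hF
        intro b c
        refine Fin.cases ?_ (fun b => ?_) b
        · refine Fin.cases (fun _ => rfl) (fun c hbc => ?_) c
          exfalso
          have h9 : rng h x = true := (rng_iff _ _).2 ⟨c, hbc.symm⟩
          rw [hx] at h9
          simp at h9
        · refine Fin.cases (fun hbc => ?_) (fun c hbc => ?_) c
          · exfalso
            have h9 : rng h x = true := (rng_iff _ _).2 ⟨b, hbc⟩
            rw [hx] at h9
            simp at h9
          · exact congrArg Fin.succ (hh hbc)
      have h10 : F' h = ∑ x ∈ univ.filter (fun x => rng h x = false), u * F (Fin.cons x h) := by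
        simp only [F']
        rw [sum_filter]
        apply sum_congr rfl
        intro x _
        cases rng h x <;> simp
      constructor
      · rw [h10]
        apply sum_nonneg
        intro x hx
        rw [mem_filter] at hx
        exact mul_nonneg hu (h9 x hx.2).1
      · rw [h10]
        have h11 : ∑ x ∈ univ.filter (fun x => rng h x = false), u * F (Fin.cons x h) ≤
            ∑ x ∈ univ.filter (fun x => rng h x = false), u := by
          apply sum_le_sum
          intro x hx
          rw [mem_filter] at hx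
          have := mul_le_mul_of_nonneg_left (h9 x hx.2).2 hu
          linarith
        refine h11.trans (le_of_eq ?_)
        rw [sum_const, nsmul_eq_mul, card_not_rng hh]
        simp only [u]
        field_simp
    have h9 : avg (fun e : Fin k ↪ V d => F' e) = avg (fun e : Fin (k + 1) ↪ V d => F e) :=
      (avg_embedding_succ hk'' F).symm
    rw [h1, h2, h3, h4, h5, KK_add, h7]
    push_cast
    rw [h9] at h8
    linarith

/-- The operator form of the process. -/
theorem avg_pos_eq [NeZero d] (a L : ℕ) (F : (Fin k → V d) → ℝ) (g : Fin k → V d) :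
    avg (fun w : Fin L → Coin d => F (fun b => pos a L w (g b))) = KK stepP (dirs d a L) F g := by
  induction L generalizing F with
  | zero =>
    rw [dirs_zero, KK_nil]
    exact avg_const (α := Fin 0 → Coin d) (F g)
  | succ L ih =>
    rw [dirs_succ, KK_append, ← ih, avg_snoc]
    apply avg_congr
    intro w
    apply avg_congr
    intro c
    congr 1
    funext b
    simp only [pos, Fin.snoc_last, Fin.init_snoc, Equiv.Perm.mul_apply]
    rfl

theorem numerics {d : ℕ} (hd : 25 ≤ d) (m : ℕ) (hm : 150 * d ≤ m) (k : ℕ)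
    (hk : (k : ℝ) ≤ 7 / 8 * 2 ^ d) :
    (k : ℝ) * (1 / 2 * √(2 ^ d * ((61 / 64) ^ m + 43 * Real.exp (-(2 ^ d / 1024))))) ≤
      1 / (2 ^ d) ^ 3 := by
  set n : ℝ := 2 ^ d with hn
  have hn0 : 0 < n := by positivity
  have h1 : (61 / 64 : ℝ) ^ m ≤ 1 / n ^ 10 := by
    have h2 : (61 / 64 : ℝ) ^ m ≤ (61 / 64 : ℝ) ^ (150 * d) :=
      pow_le_pow_of_le_one (by norm_num) (by norm_num) hm
    refine h2.trans ?_
    rw [pow_mul]
    have h3 : (61 / 64 : ℝ) ^ 150 ≤ 1 / 2 ^ 10 := by norm_num
    have h4 : ((61 / 64 : ℝ) ^ 150) ^ d ≤ (1 / 2 ^ 10) ^ d :=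
      pow_le_pow_left₀ (by positivity) h3 d
    refine h4.trans (le_of_eq ?_)
    rw [hn, div_pow, one_pow, ← pow_mul, ← pow_mul, mul_comm d 10]
  have h2 : Real.exp (-(n / 1024)) ≤ 1 / (16 * n ^ 9) := by
    rw [Real.exp_neg, one_div]
    apply inv_anti₀ (by positivity)
    have h3 := Real.pow_div_factorial_le_exp (x := n / 1024) (by positivity) 20
    refine le_trans ?_ h3
    rw [le_div_iff₀ (by positivity), div_pow]
    rw [le_div_iff₀ (by positivity)]
    have h4 : (2 : ℝ) ^ 25 ≤ n := by
      rw [hn]
      exact pow_le_pow_right₀ (by norm_num) hd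
    have h5 : n ^ 20 = n ^ 9 * n ^ 11 := by ring
    have h6 : ((2 : ℝ) ^ 25) ^ 11 ≤ n ^ 11 := pow_le_pow_left₀ (by positivity) h4 11
    have h7 : 16 * ((20 : ℕ).factorial : ℝ) * 1024 ^ 20 ≤ ((2 : ℝ) ^ 25) ^ 11 := by
      simp only [Nat.factorial]
      norm_num
    rw [h5]
    calc 16 * n ^ 9 * ((20 : ℕ).factorial : ℝ) * 1024 ^ 20
        = n ^ 9 * (16 * ((20 : ℕ).factorial : ℝ) * 1024 ^ 20) := by ring
      _ ≤ n ^ 9 * n ^ 11 := by
          apply mul_le_mul_of_nonneg_left _ (by positivity)
          exact h7.trans h6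
  have h3 : n * ((61 / 64) ^ m + 43 * Real.exp (-(n / 1024))) ≤ (2 / n ^ 4) ^ 2 := by
    have h4 : (61 / 64 : ℝ) ^ m + 43 * Real.exp (-(n / 1024)) ≤ 4 / n ^ 9 := by
      have h5 : 1 / n ^ 10 ≤ 1 / n ^ 9 := by
        apply one_div_le_one_div_of_le (by positivity)
        have : (1 : ℝ) ≤ n := by
          rw [hn]; exact one_le_pow₀ (by norm_num)
        calc n ^ 9 = n ^ 9 * 1 := by ring
          _ ≤ n ^ 9 * n := mul_le_mul_of_nonneg_left this (by positivity)
          _ = n ^ 10 := by ring
      have h6 : 1 / (16 * n ^ 9) = 1 / 16 * (1 / n ^ 9) := by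
        rw [one_div_mul_one_div]
      have h7 : 4 / n ^ 9 = 4 * (1 / n ^ 9) := by ring
      have h8 : 0 < 1 / n ^ 9 := by positivity
      rw [h6] at h2
      rw [h7]
      nlinarith
    calc n * ((61 / 64) ^ m + 43 * Real.exp (-(n / 1024))) ≤ n * (4 / n ^ 9) :=
          mul_le_mul_of_nonneg_left h4 hn0.le
      _ = (2 / n ^ 4) ^ 2 := by field_simp; norm_num
  have h4 : √(n * ((61 / 64) ^ m + 43 * Real.exp (-(n / 1024)))) ≤ 2 / n ^ 4 := by
    rw [show (2 : ℝ) / n ^ 4 = √((2 / n ^ 4) ^ 2) from (Real.sqrt_sq (by positivity)).symm]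
    exact Real.sqrt_le_sqrt h3
  calc (k : ℝ) * (1 / 2 * √(n * ((61 / 64) ^ m + 43 * Real.exp (-(n / 1024)))))
      ≤ n * (1 / 2 * (2 / n ^ 4)) := by
        apply mul_le_mul
        · linarith
        · apply mul_le_mul_of_nonneg_left h4 (by norm_num)
        · positivity
        · exact hn0.le
    _ = 1 / n ^ 3 := by field_simp

/-- **Part (A).** For `d ≥ 25`, after `L ≥ 151 d` steps (from any first direction) the joint law of
the positions of at most `7/8` of the cards, from any start, is within `n⁻³` of uniform,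
`n = 2 ^ d`. -/
theorem partA {d : ℕ} [NeZero d] (hd : 25 ≤ d) {α : Type*} [Fintype α]
    (hα : (Fintype.card α : ℝ) ≤ 7 / 8 * 2 ^ d) (a L : ℕ) (hL : 151 * d ≤ L) (f : α ↪ V d)
    (F : (α → V d) → ℝ) (hF : ∀ h, 0 ≤ F h ∧ F h ≤ 1) :
    avg (fun w : Fin L → Coin d => F (fun b => pos a L w (f b))) ≤
      avg (fun e : α ↪ V d => F e) + 1 / (2 ^ d) ^ 3 := by
  set k := Fintype.card α with hk
  let e : α ≃ Fin k := Fintype.equivFin α
  let G : (Fin k → V d) → ℝ := fun g => F (fun b => g (e b))
  let g : Fin k → V d := fun b => f (e.symm b)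
  have hg : Function.Injective g := f.injective.comp e.symm.injective
  have h1 : avg (fun w : Fin L → Coin d => F (fun b => pos a L w (f b))) =
      KK stepP (dirs d a L) G g := by
    rw [← avg_pos_eq]
    apply avg_congr
    intro w
    simp only [G, g, Equiv.symm_apply_apply]
  obtain ⟨m, rfl⟩ : ∃ m, L = d + m := ⟨L - d, by omega⟩
  have h2 := hybrid (dirs d a (d + m)) ((61 / 64) ^ m + 43 * Real.exp (-(2 ^ d / 1024)))
    (fun k σ hk hσ => decay hk a m σ hσ) k hα g hg G (fun h _ => hF _)
  have h3 := numerics hd m (by omega) k hα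
  have h4 : avg (fun e : Fin k ↪ V d => G e) = avg (fun e : α ↪ V d => F e) := by
    let E : (α ↪ V d) ≃ (Fin k ↪ V d) := Equiv.embeddingCongr e (Equiv.refl _)
    rw [← avg_equiv E]
    apply avg_congr
    intro h
    simp only [G]
    congr 1
    funext b
    simp [E, Equiv.embeddingCongr]
  rw [h1, ← h4]
  linarith

/-- The other side. -/
theorem partA' {d : ℕ} [NeZero d] (hd : 25 ≤ d) {α : Type*} [Fintype α]
    (hα : (Fintype.card α : ℝ) ≤ 7 / 8 * 2 ^ d) (a L : ℕ) (hL : 151 * d ≤ L) (f : α ↪ V d)
    (F : (α → V d) → ℝ) (hF : ∀ h, 0 ≤ F h ∧ F h ≤ 1) :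
    avg (fun e : α ↪ V d => F e) ≤
      avg (fun w : Fin L → Coin d => F (fun b => pos a L w (f b))) + 1 / (2 ^ d) ^ 3 := by
  have h := partA hd hα a L hL f (fun h => 1 - F h) (fun h => ⟨by linarith [(hF h).2],
    by linarith [(hF h).1]⟩)
  have : Nonempty (α ↪ V d) := ⟨f⟩
  rw [avg_sub, avg_sub, avg_const, avg_const] at h
  linarith

end Vale.Agent.P162.H815
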