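import Vale.Agent.P162.S2.Defs

/-!
# P162, stage 2: more on averages over finite types
-/

open Finset

namespace Vale.Agent.P162.H815

open Vale.Agent.P162.S2

section
variable {α β : Type*} [Fintype α] [Fintype β]

theorem avg_div (c : ℝ) (f : α → ℝ) : avg (fun a => f a / c) = avg f / c := by
  simp only [div_eq_mul_inv, avg_mul_right]

theorem avg_zero : avg (fun _ : α => (0 : ℝ)) = 0 := by
  simp [avg]

theorem avg_congr {f g : α → ℝ} (h : ∀ a, f a = g a) : avg f = avg g := by
  rw [show f = g from funext h]

/-- Jensen / Cauchy-Schwarz. -/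
theorem avg_sqrt_le {f : α → ℝ} (h : ∀ a, 0 ≤ f a) : avg (fun a => √(f a)) ≤ √(avg f) := by
  rcases isEmpty_or_nonempty α with h0 | h0
  · simp [avg]
  apply Real.le_sqrt_of_sq_le
  have hc : (0 : ℝ) < Fintype.card α := by exact_mod_cast Fintype.card_pos
  have h1 : (∑ a, √(f a)) ^ 2 ≤ (Fintype.card α : ℝ) * ∑ a, f a := by
    have := sum_mul_sq_le_sq_mul_sq univ (fun _ : α => (1 : ℝ)) (fun a => √(f a))
    simp only [one_mul, one_pow, sum_const, card_univ, nsmul_eq_mul, mul_one,
      Real.sq_sqrt (h _)] at this
    exact this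
  rw [avg, avg, div_pow, div_le_div_iff₀ (by positivity) hc]
  nlinarith [h1, hc]

/-- The average over `Fin (L + 1) → C` is the iterated average over the first `L` and the last
coordinate. -/
theorem avg_snoc {C : Type*} [Fintype C] (L : ℕ) (F : (Fin (L + 1) → C) → ℝ) :
    avg F = avg fun w : Fin L → C => avg fun c : C => F (Fin.snoc (α := fun _ => C) w c) := by
  have h := avg_equiv (Fin.snocEquiv fun _ : Fin (L + 1) => C) F
  rw [← h]
  rw [avg_prod]
  rw [avg_comm]
  rfl

/-- Independence: `F` depends only on the coordinates in `P`, `G` only on the others. -/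
theorem avg_mul_of_indep {ι C : Type*} [Fintype ι] [DecidableEq ι] [Fintype C] (P : ι → Prop)
    [DecidablePred P] (F G : (ι → C) → ℝ)
    (hF : ∀ w w' : ι → C, (∀ i, P i → w i = w' i) → F w = F w')
    (hG : ∀ w w' : ι → C, (∀ i, ¬ P i → w i = w' i) → G w = G w') :
    avg (fun w => F w * G w) = avg F * avg G := by
  let m : (ι → C) → (ι → C) → (ι → C) := fun w w' i => if P i then w i else w' i
  let e : (ι → C) × (ι → C) ≃ (ι → C) × (ι → C) :=
    { toFun := fun p => (m p.1 p.2, m p.2 p.1)
      invFun := fun p => (m p.1 p.2, m p.2 p.1)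
      left_inv := by
        rintro ⟨w, w'⟩
        ext i <;> by_cases h : P i <;> simp [m, h]
      right_inv := by
        rintro ⟨w, w'⟩
        ext i <;> by_cases h : P i <;> simp [m, h] }
  rcases isEmpty_or_nonempty (ι → C) with h0 | h0
  · simp [avg]
  have h1 : avg F * avg G = avg fun p : (ι → C) × (ι → C) => F p.1 * G p.2 := by
    rw [avg_prod]
    simp only [avg_mul_left, avg_mul_right]
  have h2 : (avg fun w => F w * G w) = avg fun p : (ι → C) × (ι → C) => F p.1 * G p.1 := by
    rw [avg_prod]
    simp only [avg_const]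
  rw [h1, h2, ← avg_equiv e]
  apply avg_congr
  rintro ⟨w, w'⟩
  have h3 : F (m w w') = F w := hF _ _ fun i hi => by simp [m, hi]
  have h4 : G (m w w') = G w' := hG _ _ fun i hi => by simp [m, hi]
  show F (m w w') * G (m w w') = F w * G w'
  rw [h3, h4]

/-- The average of a product of functions of different coordinates. -/
theorem avg_prod_pi {ι C : Type*} [Fintype ι] [DecidableEq ι] [Fintype C]
    (h : ι → C → ℝ) : avg (fun w : ι → C => ∏ i, h i (w i)) = ∏ i, avg (h i) := by
  simp only [avg]
  rw [prod_div_distrib, prod_const, Fintype.card_pi, card_univ, prod_const, card_univ]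
  rw [prod_univ_sum]
  simp

end

end Vale.Agent.P162.H815
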