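import Vale.Agent.P162.H815.Occ

/-!
# P162, stage 2: decay of the averaged squared norm of one card in the environment of revealed cards
-/

open Finset

namespace Vale.Agent.P162.H815

open Vale.Agent.P162.S2

variable {d : ℕ}

/-- The directions of `L` steps, the first being `a mod d`. -/
def dirs (d : ℕ) [NeZero d] (a L : ℕ) : List (Fin d) := (List.range L).map fun s => dir d (a + s)

theorem dirs_zero [NeZero d] (a : ℕ) : dirs d a 0 = [] := rfl

theorem dirs_succ [NeZero d] (a L : ℕ) : dirs d a (L + 1) = dirs d a L ++ [dir d (a + L)] := by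
  simp [dirs, List.range_succ]

theorem dirs_add [NeZero d] (a L M : ℕ) : dirs d a (L + M) = dirs d a L ++ dirs d (a + L) M := by
  induction M with
  | zero => simp [dirs_zero]
  | succ M ih => rw [← add_assoc, dirs_succ, ih, dirs_succ, List.append_assoc, add_assoc]

theorem length_dirs [NeZero d] (a L : ℕ) : (dirs d a L).length = L := by
  simp [dirs]

theorem dir_eq_iff [NeZero d] (a b : ℕ) : dir d a = dir d b ↔ a % d = b % d := by
  rw [Fin.ext_iff, dir_val, dir_val]

theorem dir_add_inj [NeZero d] {a s t : ℕ} (hs : s < d) (ht : t < d)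
    (h : dir d (a + s) = dir d (a + t)) : s = t := by
  rw [dir_eq_iff] at h
  have h1 : s % d = t % d := Nat.ModEq.add_left_cancel' a h
  rwa [Nat.mod_eq_of_lt hs, Nat.mod_eq_of_lt ht] at h1

theorem nodup_dirs [NeZero d] (a : ℕ) : (dirs d a (d - 1)).Nodup := by
  rw [dirs]
  refine List.Nodup.map_on ?_ List.nodup_range
  intro s hs t ht h
  rw [List.mem_range] at hs ht
  exact dir_add_inj (by omega) (by omega) h

theorem mem_dirs [NeZero d] (a : ℕ) (j : Fin d) :
    j ∈ dirs d a (d - 1) ↔ j ≠ dir d (a + (d - 1)) := by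
  have hd : 0 < d := Nat.pos_of_ne_zero (NeZero.ne d)
  have h1 : dir d (a + (d - 1)) ∉ dirs d a (d - 1) := by
    intro h
    rw [dirs, List.mem_map] at h
    obtain ⟨s, hs, h⟩ := h
    rw [List.mem_range] at hs
    have := dir_add_inj (by omega) (by omega) h
    omega
  have h2 : (dirs d a (d - 1)).toFinset = univ.erase (dir d (a + (d - 1))) := by
    apply eq_of_subset_of_card_le
    · intro j hj
      rw [List.mem_toFinset] at hj
      rw [mem_erase]
      refine ⟨?_, mem_univ _⟩
      rintro rfl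
      exact h1 hj
    · rw [List.toFinset_card_of_nodup (nodup_dirs a), length_dirs,
        card_erase_of_mem (mem_univ _), card_univ, Fintype.card_fin]
  rw [← List.mem_toFinset, h2]
  simp

/-- Invariant with a bound on the norm. -/
def Inv' (k : ℕ) (σ : St d) : Prop := Inv k σ ∧ σ.sq ≤ 1

theorem Inv'.step {k : ℕ} (i : Fin d) (c : Coin d) (σ : St d) (h : Inv' k σ) :
    Inv' k (σ.step i c) :=
  ⟨h.1.step i c, (sq_step_le h.1.supp c).trans h.2⟩

theorem sq_nonneg' (σ : St d) : 0 ≤ σ.sq := sum_nonneg fun _ _ => sq_nonneg _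

theorem decay_step [NeZero d] {k : ℕ} (hk : (k : ℝ) ≤ 7 / 8 * 2 ^ d) (a s : ℕ) (σ : St d)
    (hσ : Inv' k σ) :
    KK St.step (dirs d a (s + 1 + (d - 1) + 1)) St.sq σ ≤
      61 / 64 * KK St.step (dirs d a (s + 1 + (d - 1))) St.sq σ +
        2 * Real.exp (-(2 ^ d / 1024)) := by
  have hd : 0 < d := Nat.pos_of_ne_zero (NeZero.ne d)
  set l := dirs d (a + (s + 1)) (d - 1) with hl
  set i := dir d (a + (s + 1) + (d - 1)) with hi
  have hi2 : i = dir d (a + s) := by
    rw [hi, show a + (s + 1) + (d - 1) = a + s + d by omega, dir_add_self]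
  let bad : Bool → St d → ℝ := fun β τ => if (k : ℝ) / 2 + 2 ^ d / 64 < cnt i β τ then 1 else 0
  have h1 : ∀ τ : St d, Inv' k τ → KK St.step (l ++ [i]) St.sq τ ≤
      61 / 64 * KK St.step l St.sq τ + (bad false τ + bad true τ) := by
    intro τ hτ
    have hle : KK St.step (l ++ [i]) St.sq τ ≤ 1 :=
      KK_le_of_inv St.step (Inv' k) Inv'.step _ (fun _ h => h.2) τ hτ
    have h0 : 0 ≤ KK St.step l St.sq τ := KK_nonneg _ _ sq_nonneg' _
    have hb : ∀ β, 0 ≤ bad β τ := by
      intro β
      simp only [bad]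
      split <;> norm_num
    by_cases hbad : ∃ β, (k : ℝ) / 2 + 2 ^ d / 64 < cnt i β τ
    · obtain ⟨β, hβ⟩ := hbad
      have h2 : bad β τ = 1 := by simp only [bad]; rw [if_pos hβ]
      have h3 : (1 : ℝ) ≤ bad false τ + bad true τ := by
        cases β
        · linarith [hb true]
        · linarith [hb false]
      linarith
    · push Not at hbad
      have h2 := contraction (k := k) (i := i) (nodup_dirs _) (mem_dirs _) τ hτ.1 (29 / 32) (by
        intro β
        rw [length_dirs]
        have h3 : (2 : ℝ) ^ d = 2 * 2 ^ (d - 1) := by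
          rw [← pow_succ', Nat.sub_add_cancel hd]
        have h4 := hbad β
        rw [h3] at h4 hk
        linarith)
      linarith [hb false, hb true]
  have h2 : ∀ β, KK St.step (dirs d a (s + 1)) (bad β) σ ≤ Real.exp (-(2 ^ d / 1024)) := by
    intro β
    rw [dirs_succ, KK_append]
    refine KK_le_of_inv St.step (Inv' k) Inv'.step _ ?_ σ hσ
    intro τ hτ
    rw [← hi2]
    exact occ_tail i β τ hτ.1.card
  have h3 : dirs d a (s + 1 + (d - 1) + 1) = dirs d a (s + 1) ++ (l ++ [i]) := by
    rw [dirs_succ, dirs_add, List.append_assoc, ← add_assoc a (s + 1) (d - 1)]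
  have h4 : dirs d a (s + 1 + (d - 1)) = dirs d a (s + 1) ++ l := by
    rw [dirs_add]
  rw [h3, h4, KK_append _ _ (l ++ [i]), KK_append _ _ l]
  refine (KK_mono_inv St.step (Inv' k) Inv'.step _ h1 σ hσ).trans ?_
  rw [KK_add, KK_const_mul, KK_add]
  linarith [h2 false, h2 true]

theorem decay [NeZero d] {k : ℕ} (hk : (k : ℝ) ≤ 7 / 8 * 2 ^ d) (a m : ℕ) (σ : St d)
    (hσ : Inv' k σ) :
    KK St.step (dirs d a (d + m)) St.sq σ ≤
      (61 / 64) ^ m + 43 * Real.exp (-(2 ^ d / 1024)) := by
  have hd : 0 < d := Nat.pos_of_ne_zero (NeZero.ne d)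
  have he : 0 < Real.exp (-((2 : ℝ) ^ d / 1024)) := Real.exp_pos _
  induction m with
  | zero =>
    have := KK_le_of_inv St.step (Inv' k) Inv'.step (dirs d a (d + 0)) (fun _ h => h.2) σ hσ
    rw [pow_zero]
    linarith
  | succ m ih =>
    have h := decay_step hk a m σ hσ
    have h1 : m + 1 + (d - 1) = d + m := by omega
    rw [h1] at h
    rw [show d + (m + 1) = d + m + 1 by ring, pow_succ]
    nlinarith

end Vale.Agent.P162.H815
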