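import Vale.Agent.P162.H815.Decay

/-!
# P162, stage 2: conditional law of one card given the revealed cards, and the hybrid argument
-/

open Finset

namespace Vale.Agent.P162.H815

open Vale.Agent.P162.S2

variable {d k : ℕ}

/-- Occupied positions of the cards at the positions `g`. -/
def rng (g : Fin k → V d) : V d → Bool := fun x => decide (∃ b, g b = x)

/-- One step for `k` cards. -/
def stepP (i : Fin d) (c : Coin d) (g : Fin k → V d) : Fin k → V d := fun b => sw i c (g b)

/-- One step for `k` cards and one more card. -/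
def stepP2 (i : Fin d) (c : Coin d) (g : (Fin k → V d) × V d) : (Fin k → V d) × V d :=
  (stepP i c g.1, sw i c g.2)

/-- One step for `k` cards and a mass. -/
noncomputable def stepC (i : Fin d) (c : Coin d) (g : (Fin k → V d) × (V d → ℝ)) :
    (Fin k → V d) × (V d → ℝ) :=
  (stepP i c g.1, stp i (rng g.1) c g.2)

theorem rng_iff (g : Fin k → V d) (x : V d) : rng g x = true ↔ ∃ b, g b = x := by
  simp [rng]

theorem rng_stepP (i : Fin d) (c : Coin d) (g : Fin k → V d) (x : V d) :
    rng (stepP i c g) x = rng g (sw i c x) := by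
  rw [Bool.eq_iff_iff, rng_iff, rng_iff]
  constructor
  · rintro ⟨b, rfl⟩
    exact ⟨b, by rw [stepP, sw_sw]⟩
  · rintro ⟨b, hb⟩
    exact ⟨b, by rw [stepP, hb, sw_sw]⟩

/-- The state of a configuration. -/
def toSt (g : (Fin k → V d) × (V d → ℝ)) : St d := ⟨rng g.1, g.2⟩

theorem toSt_step (i : Fin d) (c : Coin d) (g : (Fin k → V d) × (V d → ℝ)) :
    toSt (stepC i c g) = (toSt g).step i c := by
  simp only [toSt, stepC, St.step, St.mk.injEq, and_true]
  funext x
  exact rng_stepP i c g.1 x

/-- `stp` is self-adjoint. -/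
theorem sum_stp_mul (i : Fin d) (O : V d → Bool) (c : Coin d) (p h : V d → ℝ) :
    ∑ x, stp i O c p x * h x = ∑ x, p x * stp i O c h x := by
  have h1 : ∀ x, stp i O c p x * h x + stp i O c p (nb i x) * h (nb i x) =
      p x * stp i O c h x + p (nb i x) * stp i O c h (nb i x) := by
    intro x
    simp only [stp]
    rw [nb_nb, sw_nb, Bool.or_comm (O (nb i x))]
    split
    · rcases sw_eq_or i c x with h1 | h1 <;> rw [h1]
      rw [nb_nb]
      ring
    · ring
  have h2 := sum_congr (s₁ := (univ : Finset (V d))) rfl fun x (_ : x ∈ univ) => h1 x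
  simp only [sum_add_distrib] at h2
  rw [sum_nb i (fun x => stp i O c p x * h x), sum_nb i (fun x => p x * stp i O c h x)] at h2
  linarith

theorem sw_update_of_ne (i : Fin d) (c : Coin d) {x z : V d} (b : Bool)
    (h : rep i x ≠ rep i z) : sw i (Function.update c (rep i z) b) x = sw i c x := by
  rw [sw_apply, sw_apply, Function.update_of_ne h]

/-- The conditional law of a card given the trajectories of the others, one step. -/
theorem avg_stp (i : Fin d) (φ : (Fin k → V d) → V d → ℝ) (g : Fin k → V d) (z : V d)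
    (hz : rng g z = false) :
    avg (fun c : Coin d => stp i (rng g) c (φ (stepP i c g)) z) =
      avg (fun c : Coin d => φ (stepP i c g) (sw i c z)) := by
  by_cases hz' : rng g (nb i z) = true
  · apply avg_congr
    intro c
    rw [stp, if_pos (by simp [hz'])]
  · have h1 : ∀ c : Coin d, stepP i (Function.update c (rep i z) (!c (rep i z))) g =
        stepP i c g := by
      intro c
      funext b
      apply sw_update_of_ne
      intro h
      rcases (rep_eq_iff i (g b) z).1 h with h | h
      · rw [(rng_iff g z).2 ⟨b, h.symm⟩] at hz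
        simp at hz
      · apply hz'
        rw [h, nb_nb]
        exact (rng_iff _ _).2 ⟨b, rfl⟩
    have h2 : ∀ c : Coin d, sw i (Function.update c (rep i z) (!c (rep i z))) z =
        nb i (sw i c z) := by
      intro c
      rw [sw_apply, sw_apply, Function.update_self]
      by_cases hc : c (rep i z) = true
      · simp [hc, nb_nb]
      · simp [hc]
    have h3 := avg_flip_coin (rep i z) fun c : Coin d => φ (stepP i c g) (sw i c z)
    simp only [h1, h2] at h3
    have h4 : avg (fun c : Coin d => stp i (rng g) c (φ (stepP i c g)) z) =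
        avg (fun c : Coin d => (φ (stepP i c g) (sw i c z) +
          φ (stepP i c g) (nb i (sw i c z))) / 2) := by
      apply avg_congr
      intro c
      rw [stp, if_neg (by simp [hz, hz'])]
      rcases sw_eq_or i c z with h5 | h5 <;> rw [h5]
      rw [nb_nb, add_comm]
    rw [h4, avg_div, avg_add, h3]
    ring

/-- The functional `∑ x, p x φ(g, x)`. -/
def Phi (φ : (Fin k → V d) × V d → ℝ) (g : (Fin k → V d) × (V d → ℝ)) : ℝ :=
  ∑ x, g.2 x * φ (g.1, x)

/-- The mass avoids the revealed cards. -/
def Sup (g : (Fin k → V d) × (V d → ℝ)) : Prop := ∀ x, rng g.1 x = true → g.2 x = 0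

theorem Sup.step (i : Fin d) (c : Coin d) (g : (Fin k → V d) × (V d → ℝ)) (h : Sup g) :
    Sup (stepC i c g) := by
  intro x hx
  have h1 : rng (stepP i c g.1) x = true := hx
  rw [rng_stepP] at h1
  exact stp_supp (σ := toSt g) h c x h1

theorem K_Phi (i : Fin d) (φ : (Fin k → V d) × V d → ℝ) (g : (Fin k → V d) × (V d → ℝ))
    (hg : Sup g) : K stepC i (Phi φ) g = Phi (K stepP2 i φ) g := by
  have h1 : ∀ c : Coin d, Phi φ (stepC i c g) =
      ∑ z, g.2 z * stp i (rng g.1) c (fun x => φ (stepP i c g.1, x)) z :=
    fun c => sum_stp_mul i (rng g.1) c g.2 fun x => φ (stepP i c g.1, x)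
  simp only [K]
  rw [avg_congr h1, avg_sum, Phi]
  apply sum_congr rfl
  intro z _
  rw [avg_mul_left]
  by_cases hz : rng g.1 z = true
  · rw [hg z hz, zero_mul, zero_mul]
  · rw [Bool.not_eq_true] at hz
    congr 1
    exact avg_stp i (fun g x => φ (g, x)) g.1 z hz

theorem KK_Phi (l : List (Fin d)) (φ : (Fin k → V d) × V d → ℝ)
    (g : (Fin k → V d) × (V d → ℝ)) (hg : Sup g) :
    KK stepC l (Phi φ) g = Phi (KK stepP2 l φ) g := by
  induction l generalizing g with
  | nil => rfl
  | cons j l ih =>
    rw [KK_cons, KK_cons, ← K_Phi j _ g hg]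
    exact avg_congr fun c => ih _ (Sup.step j c g hg)

/-- Add the uniform mass `u` on the free positions. -/
noncomputable def addU (u : ℝ) (g : (Fin k → V d) × (V d → ℝ)) : (Fin k → V d) × (V d → ℝ) :=
  (g.1, fun x => g.2 x + if rng g.1 x then 0 else u)

theorem addU_step (u : ℝ) (i : Fin d) (c : Coin d) (g : (Fin k → V d) × (V d → ℝ)) :
    addU u (stepC i c g) = stepC i c (addU u g) := by
  refine Prod.ext rfl (funext fun x => ?_)
  show stp i (rng g.1) c g.2 x + (if rng (stepP i c g.1) x then 0 else u) =
    stp i (rng g.1) c (fun x => g.2 x + if rng g.1 x then 0 else u) x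
  rw [rng_stepP, stp, stp]
  by_cases h : (rng g.1 x || rng g.1 (nb i x)) = true
  · rw [if_pos h, if_pos h]
  · rw [if_neg h, if_neg h]
    simp only [Bool.or_eq_true, not_or, Bool.not_eq_true] at h
    rcases sw_eq_or i c x with h5 | h5 <;> rw [h5] <;> simp [h.1, h.2] <;> ring

/-- Jensen. -/
theorem KK_sqrt_le {S : Type*} (stepf : Fin d → Coin d → S → S) (l : List (Fin d)) (Φ : S → ℝ)
    (h : ∀ σ, 0 ≤ Φ σ) (σ : S) : KK stepf l (fun σ => √(Φ σ)) σ ≤ √(KK stepf l Φ σ) := by
  induction l generalizing σ with
  | nil => exact le_rfl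
  | cons j l ih =>
    rw [KK_cons, KK_cons]
    refine (avg_mono fun c => ih _).trans ?_
    exact avg_sqrt_le fun c => KK_nonneg _ _ h _

theorem card_rng {g : Fin k → V d} (hg : Function.Injective g) :
    (univ.filter fun x => rng g x = true).card = k := by
  have : (univ.filter fun x => rng g x = true) = univ.image g := by
    ext x
    simp [rng_iff]
  rw [this, card_image_of_injective _ hg, card_univ, Fintype.card_fin]

theorem card_not_rng {g : Fin k → V d} (hg : Function.Injective g) :
    ((univ.filter fun x => rng g x = false).card : ℝ) = 2 ^ d - k := by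
  have h := card_filter_add_card_filter_not (s := (univ : Finset (V d))) (fun x => rng g x = true)
  rw [card_rng hg] at h
  have h4 : (univ : Finset (V d)).card = 2 ^ d := by
    rw [card_univ, Fintype.card_fun, Fintype.card_bool, Fintype.card_fin]
  rw [h4] at h
  have h5 : (univ.filter fun x => ¬ rng g x = true) = univ.filter fun x => rng g x = false := by
    ext x; simp
  rw [h5] at h
  have h6 : (k : ℝ) + ((univ.filter fun x => rng g x = false).card : ℝ) = 2 ^ d := by
    exact_mod_cast h
  linarith

theorem stepP_injective (i : Fin d) (c : Coin d) {g : Fin k → V d} (hg : Function.Injective g) :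
    Function.Injective (stepP i c g) :=
  fun _ _ h => hg ((sw i c).injective h)

/-- Bound of a functional by the norm. -/
theorem Phi_le {g : (Fin k → V d) × (V d → ℝ)} (hs : Sup g) (h0 : ∑ x, g.2 x = 0)
    {φ : (Fin k → V d) × V d → ℝ} (hφ : ∀ x, rng g.1 x = false → 0 ≤ φ (g.1, x) ∧ φ (g.1, x) ≤ 1) :
    Phi φ g ≤ 1 / 2 * √(2 ^ d * (toSt g).sq) := by
  have h1 : Phi φ g = ∑ x, g.2 x * (if rng g.1 x then 0 else φ (g.1, x) - 1 / 2) := by
    have h2 : Phi φ g = ∑ x, g.2 x * φ (g.1, x) - 1 / 2 * ∑ x, g.2 x := by
      rw [h0]; simp [Phi]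
    rw [h2, mul_sum, ← sum_sub_distrib]
    apply sum_congr rfl
    intro x _
    by_cases hx : rng g.1 x = true
    · rw [hs x hx]; simp
    · rw [Bool.not_eq_true] at hx
      rw [hx]
      simp only [Bool.false_eq_true, if_false]
      ring
  have h2 : Phi φ g ≤ ∑ x, |g.2 x| * (1 / 2) := by
    rw [h1]
    apply sum_le_sum
    intro x _
    refine (le_abs_self _).trans ?_
    rw [abs_mul]
    apply mul_le_mul_of_nonneg_left _ (abs_nonneg _)
    by_cases hx : rng g.1 x = true
    · rw [hx]; simp
    · rw [Bool.not_eq_true] at hx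
      rw [hx]
      simp only [Bool.false_eq_true, if_false]
      rw [abs_le]
      constructor <;> linarith [(hφ x hx).1, (hφ x hx).2]
  refine h2.trans ?_
  rw [← sum_mul, mul_comm]
  apply mul_le_mul_of_nonneg_left _ (by norm_num)
  apply Real.le_sqrt_of_sq_le
  have h3 := sum_mul_sq_le_sq_mul_sq univ (fun _ : V d => (1 : ℝ)) (fun x => |g.2 x|)
  simp only [one_mul, one_pow, sum_const, card_univ, nsmul_eq_mul, mul_one, sq_abs] at h3
  have h4 : (Fintype.card (V d) : ℝ) = 2 ^ d := by
    rw [Fintype.card_fun, Fintype.card_bool, Fintype.card_fin]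
    norm_num
  rw [h4] at h3
  exact h3

end Vale.Agent.P162.H815
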