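import Vale.Agent.P162.H815.OneCard

/-!
# P162, stage 2: after one step both halves are about half full of revealed cards (Chernoff)
-/

open Finset

namespace Vale.Agent.P162.H815

open Vale.Agent.P162.S2

variable {d : ℕ}

theorem card_half (i : Fin d) (β : Bool) :
    (univ.filter fun x : V d => x i = β).card * 2 = 2 ^ d := by
  have h1 : (univ.filter fun x : V d => x i = β).card =
      (univ.filter fun x : V d => x i = !β).card := by
    apply card_bij (fun x _ => nb i x)
    · intro x hx
      simp only [mem_filter, mem_univ, true_and] at hx ⊢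
      rw [nb_apply_self, hx]
    · intro x _ y _ hxy
      have := congrArg (nb i) hxy
      rwa [nb_nb, nb_nb] at this
    · intro y hy
      simp only [mem_filter, mem_univ, true_and] at hy
      refine ⟨nb i y, ?_, nb_nb i y⟩
      simp only [mem_filter, mem_univ, true_and]
      rw [nb_apply_self, hy, Bool.not_not]
  have h2 := card_filter_add_card_filter_not (s := (univ : Finset (V d))) (fun x => x i = β)
  have h3 : (univ.filter fun x : V d => ¬ x i = β) = univ.filter fun x : V d => x i = !β := by
    ext x
    simp only [mem_filter, mem_univ, true_and]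
    cases x i <;> cases β <;> decide
  rw [h3, ← h1] at h2
  have h4 : (univ : Finset (V d)).card = 2 ^ d := by
    rw [card_univ, Fintype.card_fun, Fintype.card_bool, Fintype.card_fin]
  omega

/-- The point of the switch of `r` in the half `β`. -/
def upd (i : Fin d) (β : Bool) (r : V d) : V d := Function.update r i β

theorem prod_half (i : Fin d) (β : Bool) (g : V d → Bool → ℝ) (c : Coin d) :
    ∏ x ∈ univ.filter (fun x : V d => x i = β), g x (c (rep i x)) =
      ∏ r : V d, (fun r b => if r i = false then g (upd i β r) b else 1) r (c r) := by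
  simp only []
  rw [← prod_filter]
  apply prod_bij (fun x _ => rep i x)
  · intro x _
    simp [rep]
  · intro x hx y hy hxy
    simp only [mem_filter, mem_univ, true_and] at hx hy
    rcases (rep_eq_iff i x y).1 hxy with h | h
    · exact h.symm
    · rw [h, nb_apply_self, hx] at hy
      cases β <;> simp at hy
  · intro r hr
    simp only [mem_filter, mem_univ, true_and] at hr
    refine ⟨upd i β r, ?_, ?_⟩
    · simp [upd]
    · funext j
      by_cases hj : j = i
      · subst hj; simp [rep, hr]
      · simp [rep, upd, hj]
  · intro x hx
    simp only [mem_filter, mem_univ, true_and] at hx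
    have h : upd i β (rep i x) = x := by
      funext j
      by_cases hj : j = i
      · subst hj; simp [upd, hx]
      · simp [rep, upd, hj]
    rw [h]

theorem sum_half (i : Fin d) (β : Bool) (f : V d → ℝ) :
    ∑ x, f x = ∑ x ∈ univ.filter (fun x : V d => x i = β), (f x + f (nb i x)) := by
  rw [sum_add_distrib, ← sum_filter_add_sum_filter_not univ (fun x : V d => x i = β)]
  congr 1
  symm
  apply sum_bij (fun x _ => nb i x)
  · intro x hx
    simp only [mem_filter, mem_univ, true_and] at hx ⊢
    rw [nb_apply_self, hx]
    cases β <;> decide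
  · intro x _ y _ hxy
    have := congrArg (nb i) hxy
    rwa [nb_nb, nb_nb] at this
  · intro y hy
    simp only [mem_filter, mem_univ, true_and] at hy
    refine ⟨nb i y, ?_, nb_nb i y⟩
    simp only [mem_filter, mem_univ, true_and]
    rw [nb_apply_self]
    revert hy
    cases y i <;> cases β <;> decide
  · intro x _
    rfl

theorem cnt_eq (i : Fin d) (β : Bool) (σ : St d) :
    cnt i β σ = ∑ x ∈ univ.filter (fun x : V d => x i = β), σ.o x := by
  rw [cnt]
  simp only [St.o]
  rw [sum_ite, sum_const_zero, add_zero, sum_const, nsmul_eq_mul, mul_one, filter_filter]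
  congr 2
  ext z
  simp [and_comm]

theorem card_eq {k : ℕ} {σ : St d} (h : (univ.filter fun x => σ.O x = true).card = k) :
    (k : ℝ) = ∑ x, σ.o x := by
  rw [← h]
  simp only [St.o]
  rw [sum_ite, sum_const_zero, add_zero, sum_const, nsmul_eq_mul, mul_one]

/-- Chernoff bound for the number of revealed cards in a half after one step. -/
theorem occ_tail {k : ℕ} (i : Fin d) (β : Bool) (σ : St d)
    (h : (univ.filter fun x => σ.O x = true).card = k) :
    K St.step i (fun τ => if (k : ℝ) / 2 + 2 ^ d / 64 < cnt i β τ then 1 else 0) σ ≤
      Real.exp (-(2 ^ d / 1024)) := by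
  set m : ℕ := (univ.filter fun x : V d => x i = false).card with hm
  have hm2 : (m : ℝ) = 2 ^ d / 2 := by
    have := card_half i false
    rw [← hm] at this
    have h2 : (m : ℝ) * 2 = 2 ^ d := by exact_mod_cast this
    linarith
  let g : V d → Bool → ℝ := fun x b =>
    Real.exp (1 / 8 * (St.o (if b then nb i x else x) σ - (σ.o x + σ.o (nb i x)) / 2))
  have hg : ∀ x, avg (g x) ≤ Real.exp (1 / 512) := by
    intro x
    have h1 : avg (g x) = (g x true + g x false) / 2 := by
      simp [avg]
    have h2 : avg (g x) = Real.cosh (1 / 8 * ((σ.o (nb i x) - σ.o x) / 2)) := by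
      rw [h1, Real.cosh_eq]
      simp only [g, if_true, Bool.false_eq_true, if_false]
      congr 3
      · ring
      · ring
    rw [h2]
    refine (Real.cosh_le_exp_half_sq _).trans ?_
    apply Real.exp_le_exp.2
    have h3 : (σ.o (nb i x) - σ.o x) ^ 2 ≤ 1 := by
      simp only [St.o]
      split <;> split <;> norm_num
    nlinarith
  have h1 : ∀ c : Coin d, Real.exp (1 / 8 * (cnt i β (σ.step i c) - k / 2)) =
      ∏ r : V d, (fun r b => if r i = false then g (upd i β r) b else 1) r (c r) := by
    intro c
    rw [← prod_half i β g c, ← Real.exp_sum]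
    congr 1
    rw [cnt_eq, card_eq h, sum_half i β, ← mul_sum, sum_sub_distrib, ← sum_div]
    congr 3
  have h2 : avg (fun c : Coin d => Real.exp (1 / 8 * (cnt i β (σ.step i c) - k / 2))) ≤
      Real.exp (2 ^ d / 1024) := by
    rw [avg_congr h1, avg_prod_pi fun r b => if r i = false then g (upd i β r) b else 1]
    have h3 : ∏ r : V d, avg ((fun r b => if r i = false then g (upd i β r) b else 1) r) ≤
        ∏ r : V d, (if r i = false then Real.exp (1 / 512) else 1) := by
      apply prod_le_prod
      · intro r _
        apply avg_nonneg
        intro b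
        simp only []
        split
        · exact (Real.exp_pos _).le
        · norm_num
      · intro r _
        simp only []
        split
        · exact hg _
        · rw [avg_const]
    refine h3.trans (le_of_eq ?_)
    rw [← prod_filter, prod_const, ← hm, ← Real.exp_nat_mul, hm2]
    congr 1
    ring
  have h3 : K St.step i (fun τ => if (k : ℝ) / 2 + 2 ^ d / 64 < cnt i β τ then 1 else 0) σ ≤
      avg (fun c : Coin d => Real.exp (-(2 ^ d / 512)) *
        Real.exp (1 / 8 * (cnt i β (σ.step i c) - k / 2))) := by
    apply avg_mono
    intro c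
    rw [← Real.exp_add]
    simp only []
    split
    · rename_i h4
      apply Real.one_le_exp
      linarith
    · exact (Real.exp_pos _).le
  refine h3.trans ?_
  rw [avg_mul_left]
  calc Real.exp (-(2 ^ d / 512)) * avg (fun c : Coin d =>
        Real.exp (1 / 8 * (cnt i β (σ.step i c) - k / 2)))
      ≤ Real.exp (-(2 ^ d / 512)) * Real.exp (2 ^ d / 1024) :=
        mul_le_mul_of_nonneg_left h2 (Real.exp_pos _).le
    _ = Real.exp (-(2 ^ d / 1024)) := by
        rw [← Real.exp_add]
        congr 1
        ring

end Vale.Agent.P162.H815
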