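import Vale.Agent.P162.H815.Oper

/-!
# P162, stage 2: one card in the environment of revealed cards, `L²` contraction
-/

open Finset

namespace Vale.Agent.P162.H815

open Vale.Agent.P162.S2

variable {d : ℕ}

/-- A state: the set `O` of the positions occupied by the revealed cards, and a signed mass `v`. -/
structure St (d : ℕ) where
  O : V d → Bool
  v : V d → ℝ

/-- One step for the mass: over a switch with a revealed card the mass moves with the coin, over a
switch without revealed cards it is averaged. -/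
noncomputable def stp (i : Fin d) (O : V d → Bool) (c : Coin d) (g : V d → ℝ) (x : V d) : ℝ :=
  if O x || O (nb i x) then g (sw i c x) else (g x + g (nb i x)) / 2

noncomputable def St.step (i : Fin d) (c : Coin d) (σ : St d) : St d :=
  ⟨fun x => σ.O (sw i c x), stp i σ.O c σ.v⟩

/-- Indicator of occupation. -/
def St.o (x : V d) (σ : St d) : ℝ := if σ.O x then 1 else 0

/-- Squared norm of the mass. -/
def St.sq (σ : St d) : ℝ := ∑ x, σ.v x ^ 2

theorem sw_eq_or (i : Fin d) (c : Coin d) (x : V d) : sw i c x = x ∨ sw i c x = nb i x := by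
  rw [sw_apply]
  split
  · right; rfl
  · left; rfl

theorem sw_nb (i : Fin d) (c : Coin d) (x : V d) : sw i c (nb i x) = nb i (sw i c x) := by
  rw [sw_apply, sw_apply, rep_nb]
  split <;> rfl

theorem sw_sw (i : Fin d) (c : Coin d) (x : V d) : sw i c (sw i c x) = x := by
  by_cases h : c (rep i x) = true
  · have h1 : sw i c x = nb i x := by rw [sw_apply, if_pos h]
    rw [h1, sw_apply, rep_nb, if_pos h, nb_nb]
  · have h1 : sw i c x = x := by rw [sw_apply, if_neg h]
    rw [h1, h1]

theorem sum_nb (i : Fin d) (f : V d → ℝ) : ∑ x, f (nb i x) = ∑ x, f x :=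
  Equiv.sum_comp (Function.Involutive.toPerm (nb i) (nb_nb i)) f

theorem sum_sw (i : Fin d) (c : Coin d) (f : V d → ℝ) : ∑ x, f (sw i c x) = ∑ x, f x :=
  Equiv.sum_comp (sw i c) f

/-- Invariant: no mass on the occupied positions, total mass zero, `O` has `k` elements. -/
structure Inv (k : ℕ) (σ : St d) : Prop where
  supp : ∀ x, σ.O x = true → σ.v x = 0
  sum : ∑ x, σ.v x = 0
  card : (univ.filter fun x => σ.O x = true).card = k

theorem stp_supp {i : Fin d} {σ : St d} (h : ∀ x, σ.O x = true → σ.v x = 0) (c : Coin d) (x : V d)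
    (hx : σ.O (sw i c x) = true) : stp i σ.O c σ.v x = 0 := by
  rw [stp]
  rcases sw_eq_or i c x with h1 | h1 <;> rw [h1] at hx ⊢ <;> simp [hx, h _ hx]

theorem sum_stp (i : Fin d) (σ : St d) (c : Coin d) : ∑ x, stp i σ.O c σ.v x = ∑ x, σ.v x := by
  have h : ∀ x, stp i σ.O c σ.v x + stp i σ.O c σ.v (nb i x) = σ.v x + σ.v (nb i x) := by
    intro x
    rw [stp, stp, nb_nb, sw_nb, Bool.or_comm (σ.O (nb i x))]
    split
    · rcases sw_eq_or i c x with h1 | h1 <;> rw [h1]
      rw [nb_nb, add_comm]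
    · ring
  have h1 : ∑ x, (stp i σ.O c σ.v x + stp i σ.O c σ.v (nb i x)) = ∑ x, (σ.v x + σ.v (nb i x)) :=
    sum_congr rfl fun x _ => h x
  rw [sum_add_distrib, sum_add_distrib, sum_nb i (fun x => stp i σ.O c σ.v x),
    sum_nb i (fun x => σ.v x)] at h1
  linarith

theorem Inv.step {k : ℕ} (i : Fin d) (c : Coin d) {σ : St d} (h : Inv k σ) :
    Inv k (σ.step i c) where
  supp x hx := stp_supp h.supp c x hx
  sum := by
    show ∑ x, stp i σ.O c σ.v x = 0
    rw [sum_stp, h.sum]
  card := by
    rw [← h.card]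
    apply card_bij (fun x _ => sw i c x)
    · intro x hx
      rw [mem_filter] at hx ⊢
      exact ⟨mem_univ _, hx.2⟩
    · intro x _ y _ hxy
      exact (sw i c).injective hxy
    · intro y hy
      refine ⟨sw i c y, ?_, sw_sw i c y⟩
      rw [mem_filter] at hy ⊢
      refine ⟨mem_univ _, ?_⟩
      show σ.O (sw i c (sw i c y)) = true
      rw [sw_sw]
      exact hy.2

/-- The exact identity for the squared norm after one step (it does not depend on the coins). -/
theorem sq_step {i : Fin d} {σ : St d} (h : ∀ x, σ.O x = true → σ.v x = 0) (c : Coin d) :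
    (σ.step i c).sq = 1 / 2 * σ.sq + 1 / 2 * ∑ x, σ.v x ^ 2 * σ.o (nb i x) +
      1 / 2 * ∑ x, σ.v x * σ.v (nb i x) := by
  have h1 : ∀ x, stp i σ.O c σ.v x ^ 2 + stp i σ.O c σ.v (nb i x) ^ 2 =
      1 / 2 * (σ.v x ^ 2 + σ.v (nb i x) ^ 2) +
      1 / 2 * (σ.v x ^ 2 * σ.o (nb i x) + σ.v (nb i x) ^ 2 * σ.o (nb i (nb i x))) +
      1 / 2 * (σ.v x * σ.v (nb i x) + σ.v (nb i x) * σ.v (nb i (nb i x))) := by
    intro x
    rw [stp, stp, nb_nb, sw_nb, Bool.or_comm (σ.O (nb i x))]
    simp only [St.o]
    by_cases h2 : σ.O x = true <;> by_cases h3 : σ.O (nb i x) = true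
    · simp [h2, h3, h _ h2, h _ h3]
      rcases sw_eq_or i c x with h1 | h1 <;> rw [h1]
      · simp [h _ h2, h _ h3]
      · rw [nb_nb]; simp [h _ h2, h _ h3]
    · simp only [h2, h3, h _ h2]
      rcases sw_eq_or i c x with h1 | h1 <;> rw [h1]
      · simp [h _ h2]; ring
      · rw [nb_nb]; simp [h _ h2]; ring
    · simp only [h2, h3, h _ h3]
      rcases sw_eq_or i c x with h1 | h1 <;> rw [h1]
      · simp [h _ h3]; ring
      · rw [nb_nb]; simp [h _ h3]; ring
    · simp only [h2, h3]
      simp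
      ring
  have h2 := sum_congr (s₁ := (univ : Finset (V d))) rfl fun x (_ : x ∈ univ) => h1 x
  simp only [sum_add_distrib, ← mul_sum] at h2
  rw [sum_nb i (fun x => stp i σ.O c σ.v x ^ 2), sum_nb i (fun x => σ.v x ^ 2),
    sum_nb i (fun x => σ.v x ^ 2 * σ.o (nb i x)), sum_nb i (fun x => σ.v x * σ.v (nb i x))] at h2
  have h3 : (σ.step i c).sq = ∑ x, stp i σ.O c σ.v x ^ 2 := rfl
  have h4 : σ.sq = ∑ x, σ.v x ^ 2 := rfl
  rw [h3, h4]
  linarith

theorem sq_step_le {i : Fin d} {σ : St d} (h : ∀ x, σ.O x = true → σ.v x = 0) (c : Coin d) :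
    (σ.step i c).sq ≤ σ.sq := by
  rw [sq_step h]
  have h1 : ∀ x, σ.v x ^ 2 * σ.o (nb i x) + σ.v x * σ.v (nb i x) ≤
      1 / 2 * (σ.v x ^ 2 + σ.v (nb i x) ^ 2) + 1 / 2 * (σ.v x ^ 2 * σ.o (nb i x)
        - σ.v (nb i x) ^ 2 * σ.o (nb i (nb i x))) := by
    intro x
    rw [nb_nb]
    simp only [St.o]
    by_cases h2 : σ.O x = true <;> by_cases h3 : σ.O (nb i x) = true <;> simp [h2, h3]
    · simp [h _ h2, h _ h3]
    · simp [h _ h2]
    · simp [h _ h3]
      nlinarith [sq_nonneg (σ.v x)]
    · nlinarith [sq_nonneg (σ.v x - σ.v (nb i x))]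
  have h2 := sum_le_sum fun x (_ : x ∈ (univ : Finset (V d))) => h1 x
  simp only [sum_add_distrib, ← mul_sum, sum_sub_distrib] at h2
  rw [sum_nb i (fun x => σ.v x ^ 2), sum_nb i (fun x => σ.v x ^ 2 * σ.o (nb i x))] at h2
  have h4 : σ.sq = ∑ x, σ.v x ^ 2 := rfl
  rw [h4]
  linarith

/-! ### Linear observables -/

theorem avg_flip_coin (r : V d) (F : Coin d → ℝ) :
    avg (fun c => F (Function.update c r (!c r))) = avg F := by
  have h : Function.Involutive fun c : Coin d => Function.update c r (!c r) := by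
    intro c
    simp
  exact avg_equiv h.toPerm F

theorem avg_coin (r : V d) (f : Bool → ℝ) :
    avg (fun c : Coin d => f (c r)) = (f true + f false) / 2 := by
  have h1 := avg_flip_coin r fun c : Coin d => f (c r)
  simp only [Function.update_self] at h1
  have h2 : avg (fun c : Coin d => f (c r) + f (!c r)) = f true + f false := by
    rw [avg_congr (g := fun _ => f true + f false), avg_const]
    intro c
    cases c r
    · rw [Bool.not_false, add_comm]
    · rfl
  rw [avg_add, h1] at h2
  linarith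

theorem avg_sw (i : Fin d) (g : V d → ℝ) (x : V d) :
    avg (fun c : Coin d => g (sw i c x)) = (g x + g (nb i x)) / 2 := by
  have h := avg_coin (rep i x) fun b => g (if b then nb i x else x)
  simp only [if_true, Bool.false_eq_true, if_false] at h
  rw [add_comm (g x), ← h]
  exact avg_congr fun c => by rw [sw_apply]

theorem K_v (j : Fin d) (x : V d) (σ : St d) :
    K St.step j (fun σ => σ.v x) σ = (σ.v x + σ.v (nb j x)) / 2 := by
  simp only [K, St.step, stp]
  split
  · exact avg_sw j σ.v x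
  · exact avg_const _

theorem K_o (j : Fin d) (x : V d) (σ : St d) :
    K St.step j (fun σ => σ.o x) σ = (σ.o x + σ.o (nb j x)) / 2 := by
  simp only [K, St.step, St.o]
  exact avg_sw j (fun x => if σ.O x then 1 else 0) x

/-! ### Independence of the two halves -/

/-- `F` depends only on the half `x i = β`. -/
def Half (i : Fin d) (β : Bool) (F : St d → ℝ) : Prop :=
  ∀ σ σ' : St d, (∀ x, x i = β → σ.O x = σ'.O x ∧ σ.v x = σ'.v x) → F σ = F σ'

theorem nb_apply_ne {i j : Fin d} (h : i ≠ j) (x : V d) : nb j x i = x i := by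
  simp [nb, h]

theorem nb_apply_self (i : Fin d) (x : V d) : nb i x i = !x i := by
  simp [nb]

theorem rep_apply_ne {i j : Fin d} (h : i ≠ j) (x : V d) : rep j x i = x i := by
  simp [rep, h]

theorem step_half {i j : Fin d} (hj : i ≠ j) {β : Bool} {σ σ' : St d}
    (h : ∀ x, x i = β → σ.O x = σ'.O x ∧ σ.v x = σ'.v x) {c c' : Coin d}
    (hc : ∀ x, x i = β → c x = c' x) (x : V d) (hx : x i = β) :
    (σ.step j c).O x = (σ'.step j c').O x ∧ (σ.step j c).v x = (σ'.step j c').v x := by
  have h1 : sw j c x = sw j c' x := by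
    rw [sw_apply, sw_apply, hc _ (by rw [rep_apply_ne hj]; exact hx)]
  have h2 : (sw j c' x) i = β := by
    rw [sw_apply_of_ne hj]; exact hx
  have h3 : (nb j x) i = β := by
    rw [nb_apply_ne hj]; exact hx
  constructor
  · show σ.O (sw j c x) = σ'.O (sw j c' x)
    rw [h1, (h _ h2).1]
  · show stp j σ.O c σ.v x = stp j σ'.O c' σ'.v x
    rw [stp, stp, h1, (h _ h2).2, (h _ hx).1, (h _ hx).2, (h _ h3).1, (h _ h3).2]

theorem Half.K {i j : Fin d} (hj : i ≠ j) {β : Bool} {F : St d → ℝ} (hF : Half i β F) :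
    Half i β (K St.step j F) := by
  intro σ σ' h
  exact avg_congr fun c => hF _ _ (step_half hj h fun _ _ => rfl)

theorem Half.KK {i : Fin d} {l : List (Fin d)} (hl : i ∉ l) {β : Bool} {F : St d → ℝ}
    (hF : Half i β F) : Half i β (KK St.step l F) := by
  induction l with
  | nil => exact hF
  | cons j l ih =>
    rw [List.mem_cons, not_or] at hl
    exact (ih hl.2).K hl.1

theorem K_mul {i j : Fin d} (hj : i ≠ j) {β : Bool} {F G : St d → ℝ} (hF : Half i β F)
    (hG : Half i (!β) G) (σ : St d) :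
    K St.step j (fun σ => F σ * G σ) σ = K St.step j F σ * K St.step j G σ := by
  refine avg_mul_of_indep (fun x : V d => x i = β) (fun c => F (σ.step j c))
    (fun c => G (σ.step j c)) ?_ ?_
  · intro c c' h
    exact hF _ _ (step_half hj (fun _ _ => ⟨rfl, rfl⟩) h)
  · intro c c' h
    refine hG _ _ (step_half hj (fun _ _ => ⟨rfl, rfl⟩) ?_)
    intro x hx
    refine h x ?_
    rw [hx]
    cases β <;> decide

theorem KK_mul {i : Fin d} {l : List (Fin d)} (hl : i ∉ l) {β : Bool} {F G : St d → ℝ}
    (hF : Half i β F) (hG : Half i (!β) G) (σ : St d) :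
    KK St.step l (fun σ => F σ * G σ) σ = KK St.step l F σ * KK St.step l G σ := by
  induction l generalizing σ with
  | nil => rfl
  | cons j l ih =>
    rw [List.mem_cons, not_or] at hl
    rw [KK_cons, KK_cons, KK_cons, ← K_mul hl.1 (hF.KK hl.2) (hG.KK hl.2)]
    congr 1
    funext σ
    exact ih hl.2 σ

/-! ### The contraction -/

theorem Half_v (i : Fin d) (x : V d) : Half i (x i) fun σ => σ.v x :=
  fun _ _ h => (h x rfl).2

theorem Half_v_sq (i : Fin d) (x : V d) : Half i (x i) fun σ => σ.v x ^ 2 :=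
  fun _ _ h => by simp only [(h x rfl).2]

theorem Half_o (i : Fin d) (x : V d) : Half i (x i) fun σ => σ.o x :=
  fun _ _ h => by simp only [St.o, (h x rfl).1]

/-- The number of occupied positions in the half `x i = β`. -/
def cnt (i : Fin d) (β : Bool) (σ : St d) : ℝ :=
  ((univ.filter fun x => σ.O x = true ∧ x i = β).card : ℝ)

theorem length_of_nodup {i : Fin d} {l : List (Fin d)} (hl : l.Nodup) (hli : ∀ j, j ∈ l ↔ j ≠ i) :
    l.length + 1 = d := by
  have h1 : l.toFinset = univ.erase i := by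
    ext j
    simp [hli]
  have h2 := List.toFinset_card_of_nodup hl
  rw [h1, card_erase_of_mem (mem_univ _), card_univ, Fintype.card_fin] at h2
  have := i.pos
  omega

theorem filter_eq {i : Fin d} {l : List (Fin d)} (hli : ∀ j, j ∈ l ↔ j ≠ i) (x : V d) :
    (univ.filter fun z : V d => ∀ j, j ∉ l → z j = x j) = univ.filter fun z => z i = x i := by
  ext z
  simp only [mem_filter, mem_univ, true_and]
  constructor
  · intro h
    exact h i (by simp [hli])
  · intro h j hj
    rw [hli, not_not] at hj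
    rw [hj]
    exact h

/-- **Contraction.** Let `l` be a list of all directions except `i`.  If at the beginning each half
`x i = β` contains at most `α 2^(d-1)` occupied positions, the squared norm after the steps `l, i`
is on average at most `(1 + α) / 2` times its average after the steps `l`. -/
theorem contraction {k : ℕ} {i : Fin d} {l : List (Fin d)} (hl : l.Nodup)
    (hli : ∀ j, j ∈ l ↔ j ≠ i) (σ : St d) (hσ : Inv k σ) (α : ℝ)
    (hα : ∀ β, cnt i β σ ≤ α * 2 ^ l.length) :
    KK St.step (l ++ [i]) St.sq σ ≤ 1 / 2 * (1 + α) * KK St.step l St.sq σ := by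
  have hil : i ∉ l := by simp [hli]
  rw [KK_append]
  have h1 : KK St.step l (KK St.step [i] St.sq) σ = KK St.step l (fun σ =>
      1 / 2 * σ.sq + 1 / 2 * ∑ x, σ.v x ^ 2 * σ.o (nb i x) +
      1 / 2 * ∑ x, σ.v x * σ.v (nb i x)) σ := by
    refine KK_congr_inv St.step (Inv k) (fun i c σ h => h.step i c) l ?_ σ hσ
    intro τ hτ
    rw [KK_cons, KK_nil, K, avg_congr fun c => sq_step hτ.supp c, avg_const]
  have hv : ∀ x, KK St.step l (fun σ => σ.v x) σ =
      (∑ z ∈ univ.filter (fun z : V d => z i = x i), σ.v z) / 2 ^ l.length := by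
    intro x
    rw [KK_linear St.step (fun x σ => σ.v x) K_v l hl x σ, filter_eq hli]
  have ho : ∀ x, KK St.step l (fun σ => σ.o x) σ ≤ α := by
    intro x
    rw [KK_linear St.step (fun x σ => σ.o x) K_o l hl x σ, filter_eq hli,
      div_le_iff₀ (by positivity)]
    refine le_trans (le_of_eq ?_) (hα (x i))
    rw [cnt]
    simp only [St.o]
    rw [sum_ite, sum_const_zero, add_zero, sum_const, nsmul_eq_mul, mul_one, filter_filter]
    congr 2
    ext z
    simp [and_comm]
  have h2 : ∀ x, KK St.step l (fun σ => σ.v x ^ 2 * σ.o (nb i x)) σ ≤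
      α * KK St.step l (fun σ => σ.v x ^ 2) σ := by
    intro x
    have h3 := Half_o i (nb i x)
    rw [nb_apply_self] at h3
    rw [KK_mul hil (Half_v_sq i x) h3, mul_comm]
    exact mul_le_mul_of_nonneg_right (ho _) (KK_nonneg _ _ (fun σ => sq_nonneg _) _)
  have h3 : ∀ x, KK St.step l (fun σ => σ.v x * σ.v (nb i x)) σ ≤ 0 := by
    intro x
    have h3 := Half_v i (nb i x)
    rw [nb_apply_self] at h3
    rw [KK_mul hil (Half_v i x) h3, hv, hv, div_mul_div_comm]
    apply div_nonpos_of_nonpos_of_nonneg _ (by positivity)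
    have h4 : ∑ z ∈ univ.filter (fun z : V d => z i = nb i x i), σ.v z =
        - ∑ z ∈ univ.filter (fun z : V d => z i = x i), σ.v z := by
      have h5 := hσ.sum
      rw [← sum_filter_add_sum_filter_not univ (fun z : V d => z i = x i)] at h5
      have h6 : (univ.filter fun z : V d => ¬ z i = x i) =
          univ.filter fun z : V d => z i = nb i x i := by
        ext z
        simp only [mem_filter, mem_univ, true_and]
        rw [nb_apply_self]
        cases z i <;> cases x i <;> decide
      rw [h6] at h5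
      linarith
    rw [h4]
    nlinarith [sq_nonneg (∑ z ∈ univ.filter (fun z : V d => z i = x i), σ.v z)]
  rw [h1, KK_add, KK_add, KK_const_mul, KK_const_mul, KK_const_mul, KK_sum, KK_sum]
  have h4 : KK St.step l St.sq σ = ∑ x, KK St.step l (fun σ => σ.v x ^ 2) σ := by
    rw [← KK_sum]
    rfl
  have h5 : ∑ x, KK St.step l (fun σ => σ.v x ^ 2 * σ.o (nb i x)) σ ≤
      α * ∑ x, KK St.step l (fun σ => σ.v x ^ 2) σ := by
    rw [mul_sum]
    exact sum_le_sum fun x _ => h2 x
  have h6 : ∑ x, KK St.step l (fun σ => σ.v x * σ.v (nb i x)) σ ≤ 0 :=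
    sum_nonpos fun x _ => h3 x
  rw [h4]
  linarith

end Vale.Agent.P162.H815
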