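import Vale.Agent.P162.H815.Avg

/-!
# P162, stage 2: the operator form of a process driven by coins

`S` is a type of states and `stepf i c : S → S` is one step of direction `i` with coins `c`.
`K stepf i Φ` is the average over the coins of one step, `KK stepf l Φ` of a list of steps.
-/

open Finset

namespace Vale.Agent.P162.H815

open Vale.Agent.P162.S2

variable {d : ℕ} {S S' : Type*}

/-- Average over the coins of one step. -/
noncomputable def K (stepf : Fin d → Coin d → S → S) (i : Fin d) (Φ : S → ℝ) (σ : S) : ℝ :=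
  avg fun c : Coin d => Φ (stepf i c σ)

/-- Average over the coins of several steps (the first direction of the list comes first). -/
noncomputable def KK (stepf : Fin d → Coin d → S → S) : List (Fin d) → (S → ℝ) → S → ℝ
  | [], Φ => Φ
  | j :: l, Φ => K stepf j (KK stepf l Φ)

variable (stepf : Fin d → Coin d → S → S)

theorem KK_nil (Φ : S → ℝ) : KK stepf [] Φ = Φ := rfl

theorem KK_cons (j : Fin d) (l : List (Fin d)) (Φ : S → ℝ) :
    KK stepf (j :: l) Φ = K stepf j (KK stepf l Φ) := rfl

theorem KK_append (l l' : List (Fin d)) (Φ : S → ℝ) :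
    KK stepf (l ++ l') Φ = KK stepf l (KK stepf l' Φ) := by
  induction l with
  | nil => rfl
  | cons j l ih => rw [List.cons_append, KK_cons, ih, KK_cons]

theorem KK_add (l : List (Fin d)) (Φ Ψ : S → ℝ) (σ : S) :
    KK stepf l (fun σ => Φ σ + Ψ σ) σ = KK stepf l Φ σ + KK stepf l Ψ σ := by
  induction l generalizing σ with
  | nil => rfl
  | cons j l ih =>
    simp only [KK_cons, K]
    rw [← avg_add]
    exact avg_congr fun c => ih _

theorem KK_sub (l : List (Fin d)) (Φ Ψ : S → ℝ) (σ : S) :
    KK stepf l (fun σ => Φ σ - Ψ σ) σ = KK stepf l Φ σ - KK stepf l Ψ σ := by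
  induction l generalizing σ with
  | nil => rfl
  | cons j l ih =>
    simp only [KK_cons, K]
    rw [← avg_sub]
    exact avg_congr fun c => ih _

theorem KK_const_mul (l : List (Fin d)) (a : ℝ) (Φ : S → ℝ) (σ : S) :
    KK stepf l (fun σ => a * Φ σ) σ = a * KK stepf l Φ σ := by
  induction l generalizing σ with
  | nil => rfl
  | cons j l ih =>
    simp only [KK_cons, K]
    rw [← avg_mul_left]
    exact avg_congr fun c => ih _

theorem KK_sum {ι : Type*} (s : Finset ι) (l : List (Fin d)) (Φ : ι → S → ℝ) (σ : S) :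
    KK stepf l (fun σ => ∑ i ∈ s, Φ i σ) σ = ∑ i ∈ s, KK stepf l (Φ i) σ := by
  induction l generalizing σ with
  | nil => rfl
  | cons j l ih =>
    simp only [KK_cons, K]
    rw [← avg_sum]
    exact avg_congr fun c => ih _

theorem KK_const (l : List (Fin d)) (a : ℝ) (σ : S) : KK stepf l (fun _ => a) σ = a := by
  induction l generalizing σ with
  | nil => rfl
  | cons j l ih =>
    simp only [KK_cons, K]
    rw [avg_congr fun c => ih _, avg_const]

/-- Monotonicity on states satisfying an invariant. -/
theorem KK_mono_inv (Inv : S → Prop) (hInv : ∀ i c σ, Inv σ → Inv (stepf i c σ))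
    (l : List (Fin d)) {Φ Ψ : S → ℝ} (h : ∀ σ, Inv σ → Φ σ ≤ Ψ σ) (σ : S) (hσ : Inv σ) :
    KK stepf l Φ σ ≤ KK stepf l Ψ σ := by
  induction l generalizing σ with
  | nil => exact h σ hσ
  | cons j l ih =>
    simp only [KK_cons, K]
    exact avg_mono fun c => ih _ (hInv _ _ _ hσ)

theorem KK_congr_inv (Inv : S → Prop) (hInv : ∀ i c σ, Inv σ → Inv (stepf i c σ))
    (l : List (Fin d)) {Φ Ψ : S → ℝ} (h : ∀ σ, Inv σ → Φ σ = Ψ σ) (σ : S) (hσ : Inv σ) :
    KK stepf l Φ σ = KK stepf l Ψ σ :=
  le_antisymm (KK_mono_inv stepf Inv hInv l (fun σ hσ => (h σ hσ).le) σ hσ)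
    (KK_mono_inv stepf Inv hInv l (fun σ hσ => (h σ hσ).ge) σ hσ)

theorem KK_mono (l : List (Fin d)) {Φ Ψ : S → ℝ} (h : ∀ σ, Φ σ ≤ Ψ σ) (σ : S) :
    KK stepf l Φ σ ≤ KK stepf l Ψ σ :=
  KK_mono_inv stepf (fun _ => True) (fun _ _ _ _ => trivial) l (fun σ _ => h σ) σ trivial

theorem KK_le_of_inv (Inv : S → Prop) (hInv : ∀ i c σ, Inv σ → Inv (stepf i c σ))
    (l : List (Fin d)) {Φ : S → ℝ} {B : ℝ} (h : ∀ σ, Inv σ → Φ σ ≤ B) (σ : S) (hσ : Inv σ) :
    KK stepf l Φ σ ≤ B := by
  refine (KK_mono_inv stepf Inv hInv l h σ hσ).trans ?_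
  rw [KK_const]

theorem KK_nonneg (l : List (Fin d)) {Φ : S → ℝ} (h : ∀ σ, 0 ≤ Φ σ) (σ : S) :
    0 ≤ KK stepf l Φ σ := by
  have h2 := KK_mono stepf l h σ
  rwa [KK_const] at h2

/-- A map of states commuting with the steps. -/
theorem KK_comp (stepf' : Fin d → Coin d → S' → S') (π : S → S') (Inv : S → Prop)
    (hInv : ∀ i c σ, Inv σ → Inv (stepf i c σ))
    (hπ : ∀ i c σ, Inv σ → π (stepf i c σ) = stepf' i c (π σ)) (l : List (Fin d)) (Φ : S' → ℝ)
    (σ : S) (hσ : Inv σ) : KK stepf l (fun σ => Φ (π σ)) σ = KK stepf' l Φ (π σ) := by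
  induction l generalizing σ with
  | nil => rfl
  | cons j l ih =>
    simp only [KK_cons, K]
    refine avg_congr fun c => ?_
    rw [ih _ (hInv _ _ _ hσ), hπ _ _ _ hσ]

/-- The functions `Ev x`, `x ∈ V d`, are replaced by their mean over a switch by every step: after
the steps `l` (distinct directions) `Ev x` becomes the mean over the points that agree with `x`
outside `l`. -/
theorem KK_linear (Ev : V d → S → ℝ)
    (hEv : ∀ j x σ, K stepf j (Ev x) σ = (Ev x σ + Ev (nb j x) σ) / 2) (l : List (Fin d))
    (hl : l.Nodup) (x : V d) (σ : S) :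
    KK stepf l (Ev x) σ =
      (∑ z ∈ univ.filter (fun z : V d => ∀ j, j ∉ l → z j = x j), Ev z σ) / 2 ^ l.length := by
  induction l generalizing x σ with
  | nil =>
    have h : (univ.filter (fun z : V d => ∀ j, j ∉ ([] : List (Fin d)) → z j = x j)) = {x} := by
      ext z
      simp [funext_iff]
    rw [h]
    simp [KK_nil]
  | cons j l ih =>
    rw [List.nodup_cons] at hl
    rw [KK_cons]
    have h1 : KK stepf l (Ev x) = fun σ =>
        (∑ z ∈ univ.filter (fun z : V d => ∀ j, j ∉ l → z j = x j), Ev z σ) / 2 ^ l.length :=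
      funext fun σ => ih hl.2 x σ
    rw [h1]
    have h2 : K stepf j (fun σ =>
        (∑ z ∈ univ.filter (fun z : V d => ∀ j, j ∉ l → z j = x j), Ev z σ) / 2 ^ l.length) σ =
        (∑ z ∈ univ.filter (fun z : V d => ∀ j, j ∉ l → z j = x j),
          (Ev z σ + Ev (nb j z) σ) / 2) / 2 ^ l.length := by
      rw [K, avg_div, avg_sum]
      congr 1
      exact sum_congr rfl fun z _ => hEv j z σ
    rw [h2, ← sum_div, sum_add_distrib, div_div, List.length_cons, pow_succ', mul_comm (2 : ℝ)]
    congr 1
    -- split the larger set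
    have h3 : univ.filter (fun z : V d => ∀ k, k ∉ j :: l → z k = x k) =
        univ.filter (fun z : V d => ∀ k, k ∉ l → z k = x k) ∪
        (univ.filter (fun z : V d => ∀ k, k ∉ l → z k = x k)).image (nb j) := by
      ext z
      simp only [mem_filter, mem_univ, true_and, mem_union, mem_image, List.mem_cons, not_or]
      constructor
      · intro h
        by_cases hz : z j = x j
        · left
          intro k hk
          by_cases hkj : k = j
          · rw [hkj]; exact hz
          · exact h k ⟨hkj, hk⟩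
        · right
          refine ⟨nb j z, ?_, nb_nb j z⟩
          intro k hk
          by_cases hkj : k = j
          · rw [hkj]
            have : nb j z j = !z j := by simp [nb]
            rw [this]
            cases h1 : z j <;> cases h2 : x j <;> simp_all
          · have : nb j z k = z k := by simp [nb, hkj]
            rw [this]
            exact h k ⟨hkj, hk⟩
      · rintro (h | ⟨z, h, rfl⟩) k hk
        · exact h k hk.2
        · have : nb j z k = z k := by simp [nb, hk.1]
          rw [this]
          exact h k hk.2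
    have h4 : Disjoint (univ.filter (fun z : V d => ∀ k, k ∉ l → z k = x k))
        ((univ.filter (fun z : V d => ∀ k, k ∉ l → z k = x k)).image (nb j)) := by
      rw [disjoint_left]
      intro z hz hz'
      simp only [mem_filter, mem_univ, true_and, mem_image] at hz hz'
      obtain ⟨y, hy, rfl⟩ := hz'
      have h5 := hz j hl.1
      have h6 := hy j hl.1
      have h7 : nb j y j = !y j := by simp [nb]
      rw [h7, h6] at h5
      simp at h5
    rw [h3, sum_union h4, sum_image]
    intro a _ b _ hab
    have := congrArg (nb j) hab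
    rwa [nb_nb, nb_nb] at this

end Vale.Agent.P162.H815
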